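import Vale.Agent.Potts.Regular
import Vale.Agent.Potts.PwW
import Vale.Agent.Potts.PwJT
import Vale.Agent.Potts.PwN
import Vale.Agent.Potts.GWFinal

/-!
Nonreconstruction for the three-state Potts model on regular and on Galton-Watson trees.
-/

namespace Vale.Agent.Results.P154.AllTrees

open Filter Vale.Agent.Potts

/-- three-state Potts model on the `d`-ary tree -/
theorem regular (d : ℕ) (hd : 2 ≤ d) (lam : ℝ) (h0 : -(7 / 40) ≤ lam) (hl : d * lam ^ 2 ≤ 1) :
    Tendsto (fun n => aSeq 3 d lam n) atTop (nhds 0) := by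
  have hdR : (2 : ℝ) ≤ d := by exact_mod_cast hd
  rcases le_or_gt 0 lam with hp | hn
  · have h1 : lam < 1 := by nlinarith
    exact regular_tendsto (kap := 0) (τ := 1 / 10) (by norm_num) (by norm_num) le_rfl
      (by norm_num) (by norm_num) (by norm_num) (pwm_lt h1) pwj (msgOK_pos pwt hp le_rfl h1)
      d hd hl
  · exact regular_tendsto (kap := (7 / 40) / (1 - 7 / 40)) (τ := 1 / 100) le_rfl (by norm_num)
      (by norm_num) (by norm_num) (by norm_num) (by norm_num) pwm_anti pwj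
      (msgOK_neg h0 hn.le (by norm_num) (by norm_num)) d hd hl

/-- three-state Potts model on Galton-Watson trees -/
theorem galton (p : ℕ → ℝ) (m lam : ℝ) (hp0 : ∀ k, 0 ≤ p k) (hp1 : HasSum p 1)
    (hm : HasSum (fun k : ℕ => (k : ℝ) * p k) m) (hp : p 1 < 1) (h0 : -(7 / 40) ≤ lam)
    (h1 : lam ≤ 1) (hl : m * lam ^ 2 ≤ 1) :
    Tendsto (fun n => aGW 3 p lam n) atTop (nhds 0) := by
  have hsq : lam ^ 2 ≤ 1 := by nlinarith
  rcases le_or_gt m 1 with hD1 | hD1
  · exact aGW_subcritical hp0 hp1 hm hp hD1 (by linarith) h1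
  · rcases le_or_gt 0 lam with hpos | hn
    · have hlt : lam < 1 := by
        by_contra hc
        have hc1 : lam = 1 := le_antisymm h1 (not_lt.1 hc)
        rw [hc1] at hl
        linarith
      exact aGW_tendsto hp0 hp1 hm hp (kap := 0) (τ := 1 / 10) (by norm_num) (by norm_num) le_rfl
        (by norm_num) (by norm_num) (by norm_num) (pwm_lt hlt) pwj
        (msgOK_pos pwt hpos le_rfl hlt) hsq hl
    · exact aGW_tendsto hp0 hp1 hm hp (kap := (7 / 40) / (1 - 7 / 40)) (τ := 1 / 100) le_rfl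
        (by norm_num) (by norm_num) (by norm_num) (by norm_num) (by norm_num) pwm_anti pwj
        (msgOK_neg h0 hn.le (by norm_num) (by norm_num)) hsq hl

/-- For `q = 3` and `-7/40 ≤ lam`, `d lam ^ 2 ≤ 1` implies nonreconstruction: on the `d`-ary tree
(`d ≥ 2`), on the Galton-Watson tree with Poisson offspring law of mean `D > 0`, and on the
Galton-Watson tree with any offspring law `p` of finite mean `m` other than the unit mass at `1`. -/
theorem result :
    (∀ (d : ℕ) (lam : ℝ), 2 ≤ d → -(7 / 40) ≤ lam → d * lam ^ 2 ≤ 1 →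
      Tendsto (fun n => aSeq 3 d lam n) atTop (nhds 0)) ∧
    (∀ D lam : ℝ, 0 < D → -(7 / 40) ≤ lam → lam ≤ 1 → D * lam ^ 2 ≤ 1 →
      Tendsto (fun n => aGW 3 (poisson D) lam n) atTop (nhds 0)) ∧
    (∀ (p : ℕ → ℝ) (m lam : ℝ), (∀ k, 0 ≤ p k) → HasSum p 1 →
      HasSum (fun k : ℕ => (k : ℝ) * p k) m → p 1 < 1 → -(7 / 40) ≤ lam → lam ≤ 1 →
      m * lam ^ 2 ≤ 1 → Tendsto (fun n => aGW 3 p lam n) atTop (nhds 0)) :=
  ⟨fun d lam hd h0 hl => regular d hd lam h0 hl,
    fun D lam hD h0 h1 hl => galton (poisson D) D lam (poisson_nonneg hD.le) (poisson_hasSum D)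
      (poisson_mean D) (poisson_one_lt hD.le) h0 h1 hl,
    fun p m lam hp0 hp1 hm hp h0 h1 hl => galton p m lam hp0 hp1 hm hp h0 h1 hl⟩

end Vale.Agent.Results.P154.AllTrees
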