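import Vale.Agent.Potts.Frame
import Vale.Agent.Potts.PwM
import Vale.Agent.Potts.PwqAll
import Vale.Agent.Potts.PwJT
import Vale.Agent.Potts.Anti

/-!
# P154: the Kesten-Stigum bound is tight for the ferromagnetic 3-state Potts channel on every
regular tree (and for the weakly antiferromagnetic one)
-/

open Filter Vale.Agent.Potts

namespace Vale.Agent.Results.P154.RegularAll

/-- For `q = 3`, every `d ≥ 2` and every `lam ≥ -1/27` with `d lam^2 ≤ 1`, `a_n` tends to `0` on the
rooted `d`-ary tree (nonreconstruction). -/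
theorem result (d : ℕ) (hd : 2 ≤ d) (lam : ℝ) (h0 : -(1 / 27) ≤ lam)
    (hl : (d : ℝ) * lam ^ 2 ≤ 1) :
    Tendsto (fun n => Vale.Agent.Potts.aSeq 3 d lam n) atTop (nhds 0) := by
  rcases le_total 0 lam with h | h
  · exact Frame.partAll pwm (pwq_of_le (by norm_num)) pwj pwt d hd lam h hl
  · have h2 : lam ^ 2 ≤ (1 / 27) ^ 2 := by nlinarith
    refine Frame.frame (kap := 1 / 26) (L := 5/7) (t := 1/10) (c := 1) (al := 3/2) (by norm_num)
      (by norm_num) (by norm_num) (by norm_num) pwm (pwq_of_le (by norm_num)) pwj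
      (Frame.chanOK_neg h (by linarith) (by linarith) fun v hp hv => ?_) (by nlinarith) d hd hl
    have h3 := (fm_msg_neg (L := 1 / 27) h0 h (by norm_num) v hp hv).2
    have h4 : ((1 : ℝ) / 27) / (1 - 1 / 27) = 1 / 26 := by norm_num
    rw [h4] at h3
    exact h3

end Vale.Agent.Results.P154.RegularAll
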