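import Vale.Agent.Potts.Regular
import Vale.Agent.Potts.PwW
import Vale.Agent.Potts.PwJT
import Vale.Agent.Potts.PwN
import Vale.Agent.Potts.GWFinal
import Vale.Agent.Potts.KS
import Vale.Agent.Potts.KSGW
import Vale.Agent.Potts.GWInv3
import Vale.Agent.Potts.PwInv

/-!
The reconstruction threshold of the three-state Potts model on regular and Galton-Watson trees.
-/

namespace Vale.Agent.Results.P154.Threshold

open Filter Vale.Agent.Potts

theorem iff_of {a : ℕ → ℝ} {s : ℝ} (h1 : 1 < s → ∃ ε : ℝ, 0 < ε ∧ ∀ n, ε ≤ a n)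
    (h2 : s ≤ 1 → Tendsto a atTop (nhds 0)) :
    ((∃ ε : ℝ, 0 < ε ∧ ∀ n, ε ≤ a n) ↔ 1 < s) ∧ (Tendsto a atTop (nhds 0) ↔ s ≤ 1) := by
  have h3 : (∃ ε : ℝ, 0 < ε ∧ ∀ n, ε ≤ a n) → Tendsto a atTop (nhds 0) → False := by
    rintro ⟨ε, hε, h⟩ ht
    have := ge_of_tendsto' ht h
    linarith
  refine ⟨⟨fun h => ?_, h1⟩, ⟨fun h => ?_, h2⟩⟩
  · by_contra hc
    exact h3 h (h2 (not_lt.1 hc))
  · by_contra hc
    exact h3 (h1 (not_le.1 hc)) h

/-- nonreconstruction on the `d`-ary tree, `-7/40 ≤ lam` -/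
theorem regular (d : ℕ) (hd : 2 ≤ d) (lam : ℝ) (h0 : -(7 / 40) ≤ lam) (hl : d * lam ^ 2 ≤ 1) :
    Tendsto (fun n => aSeq 3 d lam n) atTop (nhds 0) := by
  have hdR : (2 : ℝ) ≤ d := by exact_mod_cast hd
  rcases le_or_gt 0 lam with hp | hn
  · have h1 : lam < 1 := by nlinarith
    exact regular_tendsto (kap := 0) (τ := 1 / 10) (by norm_num) (by norm_num) le_rfl
      (by norm_num) (by norm_num) (by norm_num) (pwm_lt h1) pwj (msgOK_pos pwt hp le_rfl h1)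
      d hd hl
  · exact regular_tendsto (kap := (7 / 40) / (1 - 7 / 40)) (τ := 1 / 100) le_rfl (by norm_num)
      (by norm_num) (by norm_num) (by norm_num) (by norm_num) pwm_anti pwj
      (msgOK_neg h0 hn.le (by norm_num) (by norm_num)) d hd hl

/-- nonreconstruction on Galton-Watson trees, `-7/40 ≤ lam` -/
theorem galton (p : ℕ → ℝ) (m lam : ℝ) (hp0 : ∀ k, 0 ≤ p k) (hp1 : HasSum p 1)
    (hm : HasSum (fun k : ℕ => (k : ℝ) * p k) m) (hp : p 1 < 1) (h0 : -(7 / 40) ≤ lam)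
    (h1 : lam ≤ 1) (hl : m * lam ^ 2 ≤ 1) :
    Tendsto (fun n => aGW 3 p lam n) atTop (nhds 0) := by
  have hsq : lam ^ 2 ≤ 1 := by nlinarith
  rcases le_or_gt m 1 with hD1 | hD1
  · exact aGW_subcritical hp0 hp1 hm hp hD1 (by linarith) h1
  · rcases le_or_gt 0 lam with hpos | hn
    · have hlt : lam < 1 := by
        by_contra hc
        have hc1 : lam = 1 := le_antisymm h1 (not_lt.1 hc)
        rw [hc1] at hl
        linarith
      exact aGW_tendsto hp0 hp1 hm hp (kap := 0) (τ := 1 / 10) (by norm_num) (by norm_num) le_rfl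
        (by norm_num) (by norm_num) (by norm_num) (pwm_lt hlt) pwj
        (msgOK_pos pwt hpos le_rfl hlt) hsq hl
    · exact aGW_tendsto hp0 hp1 hm hp (kap := (7 / 40) / (1 - 7 / 40)) (τ := 1 / 100) le_rfl
        (by norm_num) (by norm_num) (by norm_num) (by norm_num) (by norm_num) pwm_anti pwj
        (msgOK_neg h0 hn.le (by norm_num) (by norm_num)) hsq hl

theorem lam_ge {s lam : ℝ} (hs : 33 ≤ s) (hl : s * lam ^ 2 ≤ 1) : -(7 / 40) ≤ lam := by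
  nlinarith [sq_nonneg lam]

theorem le_three {s lam : ℝ} (hs : s ≤ 3) (h0 : -(1 / 2) ≤ lam) (h1 : lam < 0) :
    s * lam ^ 2 ≤ 3 / 4 := by
  have h4 : lam ^ 2 ≤ 1 / 4 := by nlinarith
  have h5 := mul_le_mul_of_nonneg_right hs (sq_nonneg lam)
  linarith

/-- nonreconstruction on the `d`-ary tree -/
theorem regular_all (d : ℕ) (hd : 2 ≤ d) (lam : ℝ) (h0 : -(1 / 2) ≤ lam)
    (h : -(7 / 40) ≤ lam ∨ d ≤ 3 ∨ 33 ≤ d ∨ d * lam ^ 2 ≤ 3 / 4) (hl : d * lam ^ 2 ≤ 1) :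
    Tendsto (fun n => aSeq 3 d lam n) atTop (nhds 0) := by
  have hI : PWinv (3 / 5) 2 := Sub.PWinv.mono pwinv (by norm_num)
  rcases le_or_gt (-(7 / 40)) lam with hp | hn
  · exact regular d hd lam hp hl
  · rcases h with h | h | h | h
    · exact regular d hd lam h hl
    · exact regular_sub hI d lam hd h0 (by linarith)
        (le_three (by exact_mod_cast h) h0 (by linarith))
    · exact regular d hd lam (lam_ge (by exact_mod_cast h) hl) hl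
    · exact regular_sub hI d lam hd h0 (by linarith) h

/-- nonreconstruction on Galton-Watson trees -/
theorem galton_all (p : ℕ → ℝ) (m lam : ℝ) (hp0 : ∀ k, 0 ≤ p k) (hp1 : HasSum p 1)
    (hm : HasSum (fun k : ℕ => (k : ℝ) * p k) m) (hp : p 1 < 1) (h0 : -(1 / 2) ≤ lam)
    (h1 : lam ≤ 1) (h : -(7 / 40) ≤ lam ∨ m ≤ 3 ∨ 33 ≤ m ∨ m * lam ^ 2 ≤ 3 / 4)
    (hl : m * lam ^ 2 ≤ 1) : Tendsto (fun n => aGW 3 p lam n) atTop (nhds 0) := by
  have hI : PWinv (3 / 5) 2 := Sub.PWinv.mono pwinv (by norm_num)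
  rcases le_or_gt (-(7 / 40)) lam with hq | hn
  · exact galton p m lam hp0 hp1 hm hp hq h1 hl
  · rcases h with h | h | h | h
    · exact galton p m lam hp0 hp1 hm hp h h1 hl
    · exact gw_sub hI hp0 hp1 hm h0 (by linarith) (le_three h h0 (by linarith))
    · exact galton p m lam hp0 hp1 hm hp (lam_ge h hl) h1 hl
    · exact gw_sub hI hp0 hp1 hm h0 (by linarith) h

/-- **Reconstruction thresholds for the three-state Potts channel** (`q = 3`, every admissible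
`lam`). -/
theorem result :
    -- the `d`-ary tree: reconstruction if and only if `d * lam ^ 2 > 1`
    (∀ (d : ℕ) (lam : ℝ), 2 ≤ d → -(1 / 2) ≤ lam → lam ≤ 1 →
      (-(7 / 40) ≤ lam ∨ d ≤ 3 ∨ 33 ≤ d) →
      ((∃ ε : ℝ, 0 < ε ∧ ∀ n, ε ≤ aSeq 3 d lam n) ↔ 1 < d * lam ^ 2) ∧
      (Tendsto (fun n => aSeq 3 d lam n) atTop (nhds 0) ↔ d * lam ^ 2 ≤ 1)) ∧
    -- the `d`-ary tree, all `d` and `lam`
    (∀ (d : ℕ) (lam : ℝ), 2 ≤ d → -(1 / 2) ≤ lam → lam ≤ 1 →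
      (1 < d * lam ^ 2 → ∃ ε : ℝ, 0 < ε ∧ ∀ n, ε ≤ aSeq 3 d lam n) ∧
      (d * lam ^ 2 ≤ 3 / 4 → Tendsto (fun n => aSeq 3 d lam n) atTop (nhds 0))) ∧
    -- the Galton-Watson tree with Poisson(`D`) offspring, the same two statements
    (∀ D lam : ℝ, 0 < D → -(1 / 2) ≤ lam → lam ≤ 1 → (-(7 / 40) ≤ lam ∨ D ≤ 3 ∨ 33 ≤ D) →
      ((∃ ε : ℝ, 0 < ε ∧ ∀ n, ε ≤ aGW 3 (poisson D) lam n) ↔ 1 < D * lam ^ 2) ∧
      (Tendsto (fun n => aGW 3 (poisson D) lam n) atTop (nhds 0) ↔ D * lam ^ 2 ≤ 1)) ∧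
    (∀ D lam : ℝ, 0 < D → -(1 / 2) ≤ lam → lam ≤ 1 →
      (1 < D * lam ^ 2 → ∃ ε : ℝ, 0 < ε ∧ ∀ n, ε ≤ aGW 3 (poisson D) lam n) ∧
      (D * lam ^ 2 ≤ 3 / 4 → Tendsto (fun n => aGW 3 (poisson D) lam n) atTop (nhds 0))) ∧
    -- the Galton-Watson tree with offspring law `p` of mean `m`, `p 1 < 1`: nonreconstruction
    (∀ (p : ℕ → ℝ) (m lam : ℝ), (∀ k, 0 ≤ p k) → HasSum p 1 →
      HasSum (fun k : ℕ => (k : ℝ) * p k) m → p 1 < 1 → -(1 / 2) ≤ lam → lam ≤ 1 →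
      (-(7 / 40) ≤ lam ∨ m ≤ 3 ∨ 33 ≤ m ∨ m * lam ^ 2 ≤ 3 / 4) →
      m * lam ^ 2 ≤ 1 → Tendsto (fun n => aGW 3 p lam n) atTop (nhds 0)) ∧
    -- and reconstruction, if the second moment is finite
    (∀ (p : ℕ → ℝ) (m r lam : ℝ), (∀ k, 0 ≤ p k) → HasSum p 1 →
      HasSum (fun k : ℕ => (k : ℝ) * p k) m → HasSum (fun k : ℕ => (k : ℝ) * (k - 1) * p k) r →
      -(1 / 2) ≤ lam → lam ≤ 1 → 1 < m * lam ^ 2 →
      ∃ ε : ℝ, 0 < ε ∧ ∀ n, ε ≤ aGW 3 p lam n) ∧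
    -- the probabilities of the trees cut at depth `n` add up to one
    (∀ (p : ℕ → ℝ) (n : ℕ), (∀ k, 0 ≤ p k) → HasSum p 1 →
      HasSum (fun t : Tr n => treeProb p n t) 1) := by
  refine ⟨fun d lam hd h0 h1 h => iff_of (fun hs => KS.ks h0 h1 hs) fun hs =>
      regular_all d hd lam h0 (by rcases h with h | h | h <;> simp [h]) hs,
    fun d lam hd h0 h1 => ⟨fun hs => KS.ks h0 h1 hs, fun hs =>
      regular_all d hd lam h0 (Or.inr (Or.inr (Or.inr hs))) (by linarith)⟩,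
    fun D lam hD h0 h1 h => iff_of (fun hs => KSG.ks_poisson hD.le h0 h1 hs) fun hs =>
      galton_all (poisson D) D lam (poisson_nonneg hD.le) (poisson_hasSum D) (poisson_mean D)
        (poisson_one_lt hD.le) h0 h1 (by rcases h with h | h | h <;> simp [h]) hs,
    fun D lam hD h0 h1 => ⟨fun hs => KSG.ks_poisson hD.le h0 h1 hs, fun hs =>
      galton_all (poisson D) D lam (poisson_nonneg hD.le) (poisson_hasSum D) (poisson_mean D)
        (poisson_one_lt hD.le) h0 h1 (Or.inr (Or.inr (Or.inr hs))) (by linarith)⟩,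
    fun p m lam hp0 hp1 hm hp h0 h1 h hl => galton_all p m lam hp0 hp1 hm hp h0 h1 h hl,
    fun p m r lam hp0 hp1 hm hr h0 h1 hl => KSG.ks_gw hp0 hp1 hm hr h0 h1 ?_ hl,
    fun p n hp0 hp1 => treeProb_hasSum hp0 hp1 n⟩
  by_contra hc
  have := mul_nonneg (show 0 ≤ -m by linarith) (sq_nonneg lam)
  linarith

end Vale.Agent.Results.P154.Threshold
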